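import Mathlib

namespace Vale.Agent.Results.P065.A_ConvexChains

open Set

/-- The determinant of `q - p` and `r - p`: positive when `r` lies in one open halfplane of
the line through `p` and `q`, negative when it lies in the other, zero when `r` is on the line. -/
def side (p q r : ℝ × ℝ) : ℝ := (q.1 - p.1) * (r.2 - p.2) - (r.1 - p.1) * (q.2 - p.2)

theorem chord_pos {f : ℝ → ℝ} (hf : StrictConvexOn ℝ univ f) {a b c : ℝ} (hab : a < b)
    (hbc : b < c) : 0 < (b - a) * (f c - f a) - (c - a) * (f b - f a) := by
  have h := hf.slope_strict_mono_adjacent (mem_univ a) (mem_univ c) hab hbc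
  rw [div_lt_div_iff₀ (by linarith) (by linarith)] at h
  nlinarith

/-- Position of the `k`-th point of a convex chain relative to the line through the `i`-th and
the `j`-th point, `i < j`. -/
theorem side_cases {f : ℝ → ℝ} (hf : StrictConvexOn ℝ univ f) {n : ℕ} {t : Fin n → ℝ}
    (ht : StrictMono t) {i j : Fin n} (hij : i < j) (k : Fin n) :
    (0 < side (t i, f (t i)) (t j, f (t j)) (t k, f (t k)) ↔ k < i ∨ j < k) ∧
    (side (t i, f (t i)) (t j, f (t j)) (t k, f (t k)) < 0 ↔ i < k ∧ k < j) := by
  simp only [side]
  rcases lt_trichotomy k i with h | h | h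
  · have := chord_pos hf (ht h) (ht hij)
    have hpos : 0 < (t j - t i) * (f (t k) - f (t i)) - (t k - t i) * (f (t j) - f (t i)) := by
      nlinarith
    refine ⟨⟨fun _ => Or.inl h, fun _ => hpos⟩, ⟨fun hneg => absurd hpos (not_lt.2 hneg.le), ?_⟩⟩
    rintro ⟨h1, -⟩
    exact absurd h (not_lt.2 h1.le)
  · subst h
    refine ⟨⟨fun h0 => ?_, ?_⟩, ⟨fun h0 => ?_, ?_⟩⟩
    · simp at h0
    · rintro (h1 | h1)
      · exact absurd h1 (lt_irrefl _)
      · exact absurd h1 (not_lt.2 hij.le)
    · simp at h0
    · rintro ⟨h1, -⟩
      exact absurd h1 (lt_irrefl _)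
  · rcases lt_trichotomy k j with h' | h' | h'
    · have := chord_pos hf (ht h) (ht h')
      have hneg : (t j - t i) * (f (t k) - f (t i)) - (t k - t i) * (f (t j) - f (t i)) < 0 := by
        nlinarith
      refine ⟨⟨fun hpos => absurd hpos (not_lt.2 hneg.le), ?_⟩, ⟨fun _ => ⟨h, h'⟩, fun _ => hneg⟩⟩
      rintro (h1 | h1)
      · exact absurd h1 (not_lt.2 h.le)
      · exact absurd h1 (not_lt.2 h'.le)
    · subst h'
      refine ⟨⟨fun h0 => ?_, ?_⟩, ⟨fun h0 => ?_, ?_⟩⟩
      · have : (t k - t i) * (f (t k) - f (t i)) - (t k - t i) * (f (t k) - f (t i)) = 0 := by ring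
        linarith
      · rintro (h1 | h1)
        · exact absurd h1 (not_lt.2 h.le)
        · exact absurd h1 (lt_irrefl _)
      · have : (t k - t i) * (f (t k) - f (t i)) - (t k - t i) * (f (t k) - f (t i)) = 0 := by ring
        linarith
      · rintro ⟨-, h1⟩
        exact absurd h1 (lt_irrefl _)
    · have := chord_pos hf (ht hij) (ht h')
      refine ⟨⟨fun _ => Or.inr h', fun _ => this⟩, ⟨fun hneg => absurd this (not_lt.2 hneg.le), ?_⟩⟩
      rintro ⟨-, h1⟩
      exact absurd h1 (not_lt.2 h'.le)

/-- Point sets on the graph of a strictly convex function (convex chains, for instance points of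
a parabola): no three points are collinear, and for an even number `n` of points there are
exactly `n / 2` halving lines. -/
theorem result :
    ∀ (f : ℝ → ℝ), StrictConvexOn ℝ univ f → ∀ (n : ℕ), Even n → ∀ t : Fin n → ℝ, StrictMono t →
      (∀ i j k : Fin n, i < j → j < k →
        side (t i, f (t i)) (t j, f (t j)) (t k, f (t k)) ≠ 0) ∧
      ((Finset.univ : Finset (Fin n × Fin n)).filter (fun ij => ij.1 < ij.2 ∧
        ((Finset.univ : Finset (Fin n)).filter (fun k =>
          0 < side (t ij.1, f (t ij.1)) (t ij.2, f (t ij.2)) (t k, f (t k)))).card = (n - 2) / 2 ∧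
        ((Finset.univ : Finset (Fin n)).filter (fun k =>
          side (t ij.1, f (t ij.1)) (t ij.2, f (t ij.2)) (t k, f (t k)) < 0)).card
            = (n - 2) / 2)).card = n / 2 := by
  intro f hf n hn t ht
  refine ⟨?_, ?_⟩
  · intro i j k hij hjk
    have := ((side_cases hf ht hij k).1).2 (Or.inr hjk)
    exact ne_of_gt this
  · obtain ⟨m, hm⟩ := hn
    -- the two counts for a pair i < j
    have hpos : ∀ i j : Fin n, i < j →
        ((Finset.univ : Finset (Fin n)).filter (fun k =>
          0 < side (t i, f (t i)) (t j, f (t j)) (t k, f (t k)))).card = n - ((j : ℕ) + 1 - i) := by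
      intro i j hij
      have : (Finset.univ : Finset (Fin n)).filter (fun k =>
          0 < side (t i, f (t i)) (t j, f (t j)) (t k, f (t k))) = (Finset.Icc i j)ᶜ := by
        ext k
        simp only [Finset.mem_filter, Finset.mem_univ, true_and, Finset.mem_compl, Finset.mem_Icc,
          not_and, not_le]
        rw [(side_cases hf ht hij k).1]
        constructor
        · rintro (h | h)
          · intro h1
            exact absurd h (not_lt.2 h1)
          · intro _
            exact h
        · intro h
          by_cases h1 : i ≤ k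
          · exact Or.inr (h h1)
          · exact Or.inl (not_le.1 h1)
      rw [this, Finset.card_compl, Fin.card_Icc, Fintype.card_fin]
    have hneg : ∀ i j : Fin n, i < j →
        ((Finset.univ : Finset (Fin n)).filter (fun k =>
          side (t i, f (t i)) (t j, f (t j)) (t k, f (t k)) < 0)).card = (j : ℕ) - i - 1 := by
      intro i j hij
      have : (Finset.univ : Finset (Fin n)).filter (fun k =>
          side (t i, f (t i)) (t j, f (t j)) (t k, f (t k)) < 0) = Finset.Ioo i j := by
        ext k
        simp only [Finset.mem_filter, Finset.mem_univ, true_and, Finset.mem_Ioo]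
        exact (side_cases hf ht hij k).2
      rw [this, Fin.card_Ioo]
    -- the halving pairs are exactly the pairs (i, i + n/2)
    have hset : (Finset.univ : Finset (Fin n × Fin n)).filter (fun ij => ij.1 < ij.2 ∧
        ((Finset.univ : Finset (Fin n)).filter (fun k =>
          0 < side (t ij.1, f (t ij.1)) (t ij.2, f (t ij.2)) (t k, f (t k)))).card = (n - 2) / 2 ∧
        ((Finset.univ : Finset (Fin n)).filter (fun k =>
          side (t ij.1, f (t ij.1)) (t ij.2, f (t ij.2)) (t k, f (t k)) < 0)).card
            = (n - 2) / 2) =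
        (Finset.univ : Finset (Fin n × Fin n)).filter (fun ij => (ij.2 : ℕ) = (ij.1 : ℕ) + m) := by
      ext ij
      simp only [Finset.mem_filter, Finset.mem_univ, true_and]
      constructor
      · rintro ⟨hlt, h1, h2⟩
        rw [hpos _ _ hlt] at h1
        rw [hneg _ _ hlt] at h2
        have := Fin.lt_def.1 hlt
        have := ij.2.isLt
        omega
      · intro h
        have hm0 : 0 < m := by
          by_contra h0
          have : m = 0 := by omega
          have := ij.1.isLt
          omega
        have hlt : ij.1 < ij.2 := Fin.lt_def.2 (by omega)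
        refine ⟨hlt, ?_, ?_⟩
        · rw [hpos _ _ hlt]
          have := ij.2.isLt
          omega
        · rw [hneg _ _ hlt]
          have := ij.2.isLt
          omega
    rw [hset]
    have hdiv : n / 2 = m := by omega
    rw [hdiv]
    have hb : (Finset.range m).card = ((Finset.univ : Finset (Fin n × Fin n)).filter
        (fun ij => (ij.2 : ℕ) = (ij.1 : ℕ) + m)).card := by
      refine Finset.card_bij (fun a ha => ((⟨a, by
          have := Finset.mem_range.1 ha
          omega⟩ : Fin n), (⟨a + m, by
          have := Finset.mem_range.1 ha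
          omega⟩ : Fin n))) ?_ ?_ ?_
      · intro a ha
        simp
      · intro a ha b hb hab
        have := (Prod.ext_iff.1 hab).1
        exact Fin.mk.inj_iff.1 this
      · intro ij hij
        simp only [Finset.mem_filter, Finset.mem_univ, true_and] at hij
        refine ⟨(ij.1 : ℕ), ?_, ?_⟩
        · have := ij.2.isLt
          exact Finset.mem_range.2 (by omega)
        · apply Prod.ext
          · rfl
          · exact Fin.ext hij.symm
    rw [← hb, Finset.card_range]

end Vale.Agent.Results.P065.A_ConvexChains
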